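import Mathlib

/-!
# Gradient and Hessian of a cubic form given by a symmetric tensor (P256, TASK HESS)
-/

namespace Vale.Agent.H89

open MvPolynomial

private lemma pderiv_term3 {N : ℕ} (t : ℝ) (i j l m : Fin N) :
    pderiv i (C t * X j * X l * X m : MvPolynomial (Fin N) ℝ)
      = (if j = i then C t * X l * X m else 0) + (if l = i then C t * X j * X m else 0)
        + (if m = i then C t * X j * X l else 0) := by
  simp only [Derivation.leibniz, pderiv_C, pderiv_X, Pi.single_apply, smul_eq_mul]
  split_ifs <;> ring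

private lemma pderiv_term2 {N : ℕ} (t : ℝ) (i l m : Fin N) :
    pderiv i (C t * X l * X m : MvPolynomial (Fin N) ℝ)
      = (if l = i then C t * X m else 0) + (if m = i then C t * X l else 0) := by
  simp only [Derivation.leibniz, pderiv_C, pderiv_X, Pi.single_apply, smul_eq_mul]
  split_ifs <;> ring

/-- The gradient of the cubic form of a symmetric tensor, as a polynomial identity. -/
theorem pderiv_cubic {N : ℕ} (T : Fin N → Fin N → Fin N → ℝ)
    (h12 : ∀ i j l, T i j l = T j i l) (h23 : ∀ i j l, T i j l = T i l j) (i : Fin N) :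
    pderiv i (∑ j, ∑ l, ∑ m, C (T j l m) * X j * X l * X m : MvPolynomial (Fin N) ℝ)
      = C 3 * ∑ l, ∑ m, C (T i l m) * X l * X m := by
  simp only [map_sum, pderiv_term3, Finset.sum_add_distrib]
  have e1 : (∑ j, ∑ l, ∑ m, (if j = i then C (T j l m) * X l * X m else 0)
      : MvPolynomial (Fin N) ℝ) = ∑ l, ∑ m, C (T i l m) * X l * X m := by
    rw [Finset.sum_eq_single i]
    · simp
    · intro j _ hj
      simp [hj]
    · intro h
      exact absurd (Finset.mem_univ i) h
  have e2 : (∑ j, ∑ l, ∑ m, (if l = i then C (T j l m) * X j * X m else 0)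
      : MvPolynomial (Fin N) ℝ) = ∑ l, ∑ m, C (T i l m) * X l * X m := by
    refine Finset.sum_congr rfl fun j _ => ?_
    rw [Finset.sum_eq_single i]
    · simp only [if_true]
      refine Finset.sum_congr rfl fun m _ => ?_
      rw [h12 j i m]
    · intro l _ hl
      simp [hl]
    · intro h
      exact absurd (Finset.mem_univ i) h
  have e3 : (∑ j, ∑ l, ∑ m, (if m = i then C (T j l m) * X j * X l else 0)
      : MvPolynomial (Fin N) ℝ) = ∑ l, ∑ m, C (T i l m) * X l * X m := by
    refine Finset.sum_congr rfl fun j _ => ?_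
    refine Finset.sum_congr rfl fun l _ => ?_
    rw [Finset.sum_eq_single i]
    · simp only [if_true]
      rw [h23 j l i, h12 j i l]
    · intro m _ hm
      simp [hm]
    · intro h
      exact absurd (Finset.mem_univ i) h
  rw [e1, e2, e3]
  have h3 : (C 3 : MvPolynomial (Fin N) ℝ) = 3 := map_ofNat C 3
  rw [h3]
  ring

theorem pderiv_cubic_eval {N : ℕ} (T : Fin N → Fin N → Fin N → ℝ)
    (h12 : ∀ i j l, T i j l = T j i l) (h23 : ∀ i j l, T i j l = T i l j) (a : Fin N → ℝ)
    (i : Fin N) :
    MvPolynomial.eval a (MvPolynomial.pderiv i (∑ j, ∑ l, ∑ m,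
      MvPolynomial.C (T j l m) * MvPolynomial.X j * MvPolynomial.X l * MvPolynomial.X m))
      = 3 * ∑ l, ∑ m, T i l m * a l * a m := by
  rw [pderiv_cubic T h12 h23 i]
  simp only [map_mul, map_sum, eval_C, eval_X]

theorem pderiv_pderiv_cubic_eval {N : ℕ} (T : Fin N → Fin N → Fin N → ℝ)
    (h12 : ∀ i j l, T i j l = T j i l) (h23 : ∀ i j l, T i j l = T i l j) (a : Fin N → ℝ)
    (i j : Fin N) :
    MvPolynomial.eval a (MvPolynomial.pderiv i (MvPolynomial.pderiv j (∑ j', ∑ l, ∑ m,
      MvPolynomial.C (T j' l m) * MvPolynomial.X j' * MvPolynomial.X l * MvPolynomial.X m)))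
      = 6 * ∑ m, T i j m * a m := by
  rw [pderiv_cubic T h12 h23 j]
  have hp : pderiv i (C 3 * ∑ l, ∑ m, C (T j l m) * X l * X m : MvPolynomial (Fin N) ℝ)
      = C 3 * ∑ l, ∑ m, ((if l = i then C (T j l m) * X m else 0)
          + (if m = i then C (T j l m) * X l else 0)) := by
    rw [Derivation.leibniz, pderiv_C, smul_zero, add_zero, smul_eq_mul]
    simp only [map_sum, pderiv_term2]
  rw [hp]
  simp only [map_mul, map_sum, map_add, eval_C, Finset.sum_add_distrib]
  have e1 : (∑ l, ∑ m, eval a (if l = i then C (T j l m) * X m else 0 : MvPolynomial (Fin N) ℝ))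
      = ∑ m, T i j m * a m := by
    rw [Finset.sum_eq_single i]
    · simp only [if_true, map_mul, eval_C, eval_X]
      refine Finset.sum_congr rfl fun m _ => ?_
      rw [h12 j i m]
    · intro l _ hl
      simp [hl]
    · intro h
      exact absurd (Finset.mem_univ i) h
  have e2 : (∑ l, ∑ m, eval a (if m = i then C (T j l m) * X l else 0 : MvPolynomial (Fin N) ℝ))
      = ∑ m, T i j m * a m := by
    refine Finset.sum_congr rfl fun l _ => ?_
    rw [Finset.sum_eq_single i]
    · simp only [if_true, map_mul, eval_C, eval_X]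
      rw [h23 j l i, h12 j i l]
    · intro m _ hm
      simp [hm]
    · intro h
      exact absurd (Finset.mem_univ i) h
  rw [e1, e2]
  ring

end Vale.Agent.H89
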